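import Vale.Agent.P254.SP.POS.Iface
import Vale.Agent.P254.S.H545.GaugeAd
import Vale.Agent.P254.S.H332.Fc
import Vale.Agent.P254.S.H979.Push

/-!
P254, block SP, row SP-P4 (helper800): signs of `⟨v, E g(D²φ_P) v⟩` at an eigenvector of `P`
(`StmtFace` of `SP/POS/Iface`).
-/

open MeasureTheory Matrix
open scoped Topology

noncomputable section

namespace Vale.Agent.P254.SP.H800

open Vale.Agent.P227.M Vale.Agent.P254.S Vale.Agent.P254.S.H545 Vale.Agent.P254.SP.Pos

variable {n : ℕ}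

/-! ### one variable -/

theorem support_line {h : ℝ → ℝ} (hh : ConvexOn ℝ (Set.Ioi 0) h) {s₀ : ℝ} (hs : 0 < s₀) :
    ∃ k, ∀ s, 0 < s → h s₀ + k * (s - s₀) ≤ h s := by
  have hx : s₀ ∈ interior (Set.Ioi (0 : ℝ)) := by rw [interior_Ioi]; exact hs
  refine ⟨derivWithin h (Set.Ioi s₀) s₀, fun s hs' => ?_⟩
  rcases lt_trichotomy s₀ s with h1 | h1 | h1
  · have h2 := hh.rightDeriv_le_slope_of_mem_interior hx hs' h1
    rw [slope_def_field, le_div_iff₀ (sub_pos.2 h1)] at h2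
    linarith
  · rw [h1]; simp
  · have h2 := (hh.slope_le_leftDeriv_of_mem_interior hs' hx h1).trans
      (hh.leftDeriv_le_rightDeriv_of_mem_interior hx)
    rw [slope_def_field, div_le_iff₀ (sub_pos.2 h1)] at h2
    linarith

/-! ### expectations -/

/-- directional integration by parts against `e^{-V}` -/
theorem ibp_dir {V : E n → ℝ} {c C : ℝ} (h : Reg V c C) {f : E n → ℝ} (hf : ContDiff ℝ 1 f)
    (hg : Gr f) (hg' : ∀ i, Gr (pd i f)) (v : E n) :
    Ex V (fun x => fderiv ℝ V x v * f x) = Ex V (fun x => fderiv ℝ f x v) := by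
  rw [← int_law h, ← int_law h]
  have e1 : ∀ x, fderiv ℝ V x v * f x = ∑ i, v i * (pd i V x * f x) := by
    intro x
    rw [fderiv_eq_sum, Finset.sum_mul]
    exact Finset.sum_congr rfl fun i _ => by ring
  simp only [e1, fderiv_eq_sum f _ v]
  rw [integral_finsetSum _ fun i _ =>
      (integrable_law_gr h ((h.gr_pd i).mul hg)).const_mul (v i),
    integral_finsetSum _ fun i _ => (integrable_law_gr h (hg' i)).const_mul (v i)]
  refine Finset.sum_congr rfl fun i _ => ?_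
  rw [integral_const_mul, integral_const_mul, int_law h, int_law h]
  congr 1
  exact ibp h hf hg i (hg' i)

theorem gr_inner (v : E n) : Gr (fun x : E n => (inner ℝ x v : ℝ)) := by
  have e : (fun x : E n => (inner ℝ x v : ℝ)) = fun x => ∑ i, v i * x i := by
    funext x
    rw [PiLp.inner_apply]
    refine Finset.sum_congr rfl fun i _ => ?_
    simp
  rw [e]
  exact Gr.sum _ fun i _ => (Gr.coord i).const_mul _

theorem fderiv_Q (z v : E n) : fderiv ℝ (Q : E n → ℝ) z v = inner ℝ z v := by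
  rw [fderiv_eq_sum, PiLp.inner_apply]
  refine Finset.sum_congr rfl fun i _ => ?_
  rw [pd_Q]
  simp

/-- monotonicity -/
theorem Ex_mono {V : E n → ℝ} {c C : ℝ} (h : Reg V c C) {f g : E n → ℝ} (hf : Gr f) (hg : Gr g)
    (hfg : ∀ x, f x ≤ g x) : Ex V f ≤ Ex V g := by
  rw [← int_law h, ← int_law h]
  exact integral_mono (integrable_law_gr h hf) (integrable_law_gr h hg) hfg

theorem Ex_cmul {V : E n → ℝ} {c C : ℝ} (h : Reg V c C) (k : ℝ) (f : E n → ℝ) :
    Ex V (fun x => k * f x) = k * Ex V f := by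
  rw [← int_law h, ← int_law h, integral_const_mul]

theorem Ex_addf {V : E n → ℝ} {c C : ℝ} (h : Reg V c C) {f g : E n → ℝ} (hf : Gr f) (hg : Gr g) :
    Ex V (fun x => f x + g x) = Ex V f + Ex V g := by
  rw [← int_law h, ← int_law h, ← int_law h,
    integral_add (integrable_law_gr h hf) (integrable_law_gr h hg)]

theorem Ex_cst {V : E n → ℝ} {c C : ℝ} (h : Reg V c C) (k : ℝ) : Ex V (fun _ => k) = k := by
  have := isProb_law h
  rw [← int_law h]
  simp

/-- `E ⟨z,v⟩² = ‖v‖²` -/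
theorem Ex_inner_sq (v : E n) : Ex Q (fun z => (inner ℝ z v : ℝ) ^ 2) = ‖v‖ ^ 2 := by
  have hpd : ∀ (i : Fin n) (z : E n), pd i (fun z : E n => (inner ℝ z v : ℝ)) z = v i := by
    intro i z
    have h1 : HasFDerivAt (fun z : E n => (inner ℝ z v : ℝ)) (innerSL ℝ v) z := by
      have h2 : (fun z : E n => (inner ℝ z v : ℝ)) = fun z => innerSL ℝ v z := by
        funext z; rw [innerSL_apply_apply, real_inner_comm]
      rw [h2]
      exact (innerSL ℝ v).hasFDerivAt
    rw [pd, h1.fderiv, innerSL_apply_apply, ei, EuclideanSpace.inner_single_right]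
    simp
  have h1 := ibp_dir (reg_Q (n := n)) (f := fun z => (inner ℝ z v : ℝ))
    (contDiff_id.inner ℝ contDiff_const) (gr_inner v)
    (fun i => by
      have : pd i (fun z : E n => (inner ℝ z v : ℝ)) = fun _ => v i := funext fun z => hpd i z
      rw [this]
      exact Gr.const _) v
  have e1 : (fun z : E n => (inner ℝ z v : ℝ) ^ 2) = fun z => fderiv ℝ Q z v * inner ℝ z v := by
    funext z; rw [fderiv_Q, pow_two]
  have e2 : (fun z : E n => fderiv ℝ (fun z : E n => (inner ℝ z v : ℝ)) z v) = fun _ => ‖v‖ ^ 2 := by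
    funext z
    rw [fderiv_eq_sum, norm_sq_eq_sum]
    simp only [hpd, pow_two]
  rw [e1, h1, e2, Ex_cst reg_Q]

theorem le_of_param {s D : ℝ} (hs : 0 < s) (h : ∀ l, 0 < l → s ≤ l / 2 + D / (2 * l)) :
    s ≤ Real.sqrt D := by
  have h1 := h s hs
  have h2 : s / 2 ≤ D / (2 * s) := by linarith
  rw [le_div_iff₀ (by positivity)] at h2
  exact Real.le_sqrt_of_sq_le (by nlinarith)

/-! ### the frame -/

/-- coordinates of `v` in the frame -/
def cw (U : E n → Matrix (Fin n) (Fin n) ℝ) (v z : E n) (k : Fin n) : ℝ := ∑ i, U z i k * v i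

theorem qf_fc (U : E n → Matrix (Fin n) (Fin n) ℝ) (m : E n → Fin n → ℝ) (F : ℝ → ℝ) (z v : E n) :
    qf (fc U m F z) v = ∑ k, F (m z k) * cw U v z k ^ 2 := by
  have e : ∀ k, F (m z k) * cw U v z k ^ 2
      = ∑ i, ∑ j, U z i k * F (m z k) * U z j k * v i * v j := by
    intro k
    rw [pow_two, cw, Finset.sum_mul_sum, Finset.mul_sum]
    refine Finset.sum_congr rfl fun i _ => ?_
    rw [Finset.mul_sum]
    exact Finset.sum_congr rfl fun j _ => by ring
  simp only [e]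
  rw [Finset.sum_comm]
  unfold qf
  refine Finset.sum_congr rfl fun i _ => ?_
  rw [Finset.sum_comm]
  refine Finset.sum_congr rfl fun j _ => ?_
  rw [S332.fc_apply, Finset.sum_mul, Finset.sum_mul]

theorem qf_one (v : E n) : qf (1 : Matrix (Fin n) (Fin n) ℝ) v = ‖v‖ ^ 2 := by
  unfold qf
  rw [norm_sq_eq_sum]
  refine Finset.sum_congr rfl fun i _ => ?_
  simp only [Matrix.one_apply, ite_mul, one_mul, zero_mul, Finset.sum_ite_eq, Finset.mem_univ,
    if_true]
  ring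

section

variable {M : E n → Matrix (Fin n) (Fin n) ℝ} {U : E n → Matrix (Fin n) (Fin n) ℝ}
  {m : E n → Fin n → ℝ}

theorem sum_cw (h : Spec M U m) (z v : E n) : ∑ k, cw U v z k ^ 2 = ‖v‖ ^ 2 := by
  have h1 := qf_fc U m (fun _ => 1) z v
  have h2 : fc U m (fun _ => 1) z = 1 := by
    rw [fc, Matrix.diagonal_one, Matrix.mul_one, h.orth]
  rw [h2, qf_one] at h1
  rw [h1]
  exact Finset.sum_congr rfl fun k _ => by ring

theorem qf_spec (h : Spec M U m) (z v : E n) : qf (M z) v = ∑ k, m z k * cw U v z k ^ 2 := by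
  have h2 : M z = fc U m (fun x => x) z := by rw [h.dec z]; rfl
  rw [h2, qf_fc]

theorem fc_inv (h : Spec M U m) (z : E n) (hm : ∀ k, m z k ≠ 0) :
    fc U m (fun x => x⁻¹) z = (M z)⁻¹ := by
  symm
  refine Matrix.inv_eq_right_inv ?_
  rw [h.dec z, fc]
  calc U z * diagonal (m z) * (U z).transpose * (U z * diagonal (fun k => (m z k)⁻¹) * (U z).transpose)
      = U z * (diagonal (m z) * ((U z).transpose * U z) * diagonal (fun k => (m z k)⁻¹)) *
          (U z).transpose := by simp only [Matrix.mul_assoc]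
    _ = 1 := by
      rw [S332.Spec.orth' h, Matrix.mul_one, Matrix.diagonal_mul_diagonal]
      simp only [mul_inv_cancel₀ (hm _)]
      rw [Matrix.diagonal_one, Matrix.mul_one, h.orth]

end

section

variable {φ V : E n → ℝ} {a b K κ : ℝ} {U : E n → Matrix (Fin n) (Fin n) ℝ}
  {m : E n → Fin n → ℝ}

theorem gr_qf (h : BP φ V a b K κ) (hS : Spec (hess φ) U m) {g : ℝ → ℝ}
    (hg : ContinuousOn g (Set.Ioi 0)) (v : E n) : Gr (fun z => qf (fc U m g z) v) := by
  have e : (fun z => qf (fc U m g z) v) = fun z => ∑ i, ∑ j, (v i * v j) * fc U m g z i j := by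
    funext z
    exact Finset.sum_congr rfl fun i _ => Finset.sum_congr rfl fun j _ => by ring
  rw [e]
  exact Gr.sum _ fun i _ => Gr.sum _ fun j _ => (S332.fc_gr h hS hg i j).const_mul _

theorem qf_mF (h : BP φ V a b K κ) (hS : Spec (hess φ) U m) {g : ℝ → ℝ}
    (hg : ContinuousOn g (Set.Ioi 0)) (v : E n) :
    qf (mF U m g) v = Ex Q (fun z => qf (fc U m g z) v) := by
  have e : (fun z => qf (fc U m g z) v) = fun z => ∑ i, ∑ j, (v i * v j) * fc U m g z i j := by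
    funext z
    exact Finset.sum_congr rfl fun i _ => Finset.sum_congr rfl fun j _ => by ring
  rw [e, S332.Ex_sum _ fun i _ => Gr.sum _ fun j _ => (S332.fc_gr h hS hg i j).const_mul _]
  refine Finset.sum_congr rfl fun i _ => ?_
  rw [S332.Ex_sum _ fun j _ => (S332.fc_gr h hS hg i j).const_mul _]
  refine Finset.sum_congr rfl fun j _ => ?_
  rw [S332.Ex_const_mul, mF]
  ring

/-- Jensen, upper -/
theorem jensen_upper (h : BP φ V a b K κ) (hS : Spec (hess φ) U m) {g : ℝ → ℝ}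
    (hc : ContinuousOn g (Set.Ioi 0)) (hg : ConcaveOn ℝ (Set.Ioi 0) g) (v : E n) (hv : v ≠ 0) :
    0 < Ex Q (fun z => qf (hess φ z) v) / ‖v‖ ^ 2 ∧
    qf (mF U m g) v ≤ g (Ex Q (fun z => qf (hess φ z) v) / ‖v‖ ^ 2) * ‖v‖ ^ 2 := by
  have hN : 0 < ‖v‖ ^ 2 := by have := norm_pos_iff.2 hv; positivity
  have hid : ContinuousOn (fun x : ℝ => x) (Set.Ioi 0) := continuousOn_id
  have eq1 : (fun z => qf (hess φ z) v) = fun z => qf (fc U m (fun x => x) z) v := by
    funext z; rw [qf_spec hS, qf_fc]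
  have hgq : Gr (fun z => qf (hess φ z) v) := by rw [eq1]; exact gr_qf h hS hid v
  have hpos : 0 < Ex Q (fun z => qf (hess φ z) v) := by
    have h1 : a * ‖v‖ ^ 2 ≤ Ex Q (fun z => qf (hess φ z) v) := by
      rw [← Ex_cst (reg_Q (n := n)) (a * ‖v‖ ^ 2)]
      exact Ex_mono reg_Q (Gr.const _) hgq fun z => h.lower z v
    have := h.a_pos
    exact lt_of_lt_of_le (by positivity) h1
  refine ⟨div_pos hpos hN, ?_⟩
  set s₀ := Ex Q (fun z => qf (hess φ z) v) / ‖v‖ ^ 2 with hs₀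
  have hs : 0 < s₀ := div_pos hpos hN
  obtain ⟨k, hk⟩ := support_line hg.neg hs
  rw [qf_mF h hS hc]
  have hpt : ∀ z, qf (fc U m g z) v ≤ (-k) * qf (hess φ z) v + (g s₀ + k * s₀) * ‖v‖ ^ 2 := by
    intro z
    rw [qf_fc, qf_spec hS, ← sum_cw hS z v, Finset.mul_sum, Finset.mul_sum, ← Finset.sum_add_distrib]
    refine Finset.sum_le_sum fun i _ => ?_
    have h1 := hk (m z i) (S332.eig_pos h hS z i)
    simp only [Pi.neg_apply] at h1
    have h2 : g (m z i) ≤ (-k) * m z i + (g s₀ + k * s₀) := by linarith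
    calc g (m z i) * cw U v z i ^ 2 ≤ ((-k) * m z i + (g s₀ + k * s₀)) * cw U v z i ^ 2 :=
          mul_le_mul_of_nonneg_right h2 (sq_nonneg _)
      _ = _ := by ring
  have h3 := Ex_mono (reg_Q (n := n)) (gr_qf h hS hc v)
    ((hgq.const_mul (-k)).add (Gr.const ((g s₀ + k * s₀) * ‖v‖ ^ 2))) hpt
  rw [Ex_addf reg_Q (hgq.const_mul _) (Gr.const _), Ex_cmul reg_Q, Ex_cst reg_Q] at h3
  have h4 : Ex Q (fun z => qf (hess φ z) v) = s₀ * ‖v‖ ^ 2 := by
    rw [hs₀]; field_simp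
  rw [h4] at h3
  linarith

/-- Jensen, lower -/
theorem jensen_lower (h : BP φ V a b K κ) (hS : Spec (hess φ) U m) {g : ℝ → ℝ}
    (hc : ContinuousOn g (Set.Ioi 0)) (hg : ConvexOn ℝ (Set.Ioi 0) (fun s => g s⁻¹)) (v : E n)
    (hv : v ≠ 0) :
    0 < Ex Q (fun z => qf (hess φ z)⁻¹ v) / ‖v‖ ^ 2 ∧
    g (Ex Q (fun z => qf (hess φ z)⁻¹ v) / ‖v‖ ^ 2)⁻¹ * ‖v‖ ^ 2 ≤ qf (mF U m g) v := by
  have hN : 0 < ‖v‖ ^ 2 := by have := norm_pos_iff.2 hv; positivity
  have hid : ContinuousOn (fun x : ℝ => x⁻¹) (Set.Ioi 0) :=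
    continuousOn_inv₀.mono fun x hx => (ne_of_gt hx)
  have eq1 : (fun z => qf (hess φ z)⁻¹ v) = fun z => qf (fc U m (fun x => x⁻¹) z) v := by
    funext z; rw [fc_inv hS z fun k => (S332.eig_pos h hS z k).ne']
  have hgq : Gr (fun z => qf (hess φ z)⁻¹ v) := by rw [eq1]; exact gr_qf h hS hid v
  have hb : ∀ z, b⁻¹ * ‖v‖ ^ 2 ≤ qf (hess φ z)⁻¹ v := by
    intro z
    have e : qf (hess φ z)⁻¹ v = qf (fc U m (fun x => x⁻¹) z) v := congrFun eq1 z
    rw [e, qf_fc, ← sum_cw hS z v, Finset.mul_sum]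
    refine Finset.sum_le_sum fun i _ => mul_le_mul_of_nonneg_right ?_ (sq_nonneg _)
    have h1 := S332.eig_Icc h hS z i
    have h2 := S332.eig_pos h hS z i
    exact inv_anti₀ h2 h1.2
  have hb0 : 0 < b := by
    have h1 := h.lower 0 v
    have h2 := h.upper 0 v
    have h3 := h.a_pos
    by_contra hcon
    push Not at hcon
    nlinarith
  have hpos : 0 < Ex Q (fun z => qf (hess φ z)⁻¹ v) := by
    have h1 : b⁻¹ * ‖v‖ ^ 2 ≤ Ex Q (fun z => qf (hess φ z)⁻¹ v) := by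
      rw [← Ex_cst (reg_Q (n := n)) (b⁻¹ * ‖v‖ ^ 2)]
      exact Ex_mono reg_Q (Gr.const _) hgq hb
    exact lt_of_lt_of_le (by positivity) h1
  refine ⟨div_pos hpos hN, ?_⟩
  set s₀ := Ex Q (fun z => qf (hess φ z)⁻¹ v) / ‖v‖ ^ 2 with hs₀
  have hs : 0 < s₀ := div_pos hpos hN
  obtain ⟨k, hk⟩ := support_line hg hs
  rw [qf_mF h hS hc]
  have hpt : ∀ z, k * qf (hess φ z)⁻¹ v + (g s₀⁻¹ - k * s₀) * ‖v‖ ^ 2 ≤ qf (fc U m g z) v := by
    intro z
    have e : qf (hess φ z)⁻¹ v = qf (fc U m (fun x => x⁻¹) z) v := congrFun eq1 z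
    rw [e, qf_fc, qf_fc, ← sum_cw hS z v, Finset.mul_sum, Finset.mul_sum,
      ← Finset.sum_add_distrib]
    refine Finset.sum_le_sum fun i _ => ?_
    have h1 := hk (m z i)⁻¹ (inv_pos.2 (S332.eig_pos h hS z i))
    simp only [inv_inv] at h1
    have h2 : k * (m z i)⁻¹ + (g s₀⁻¹ - k * s₀) ≤ g (m z i) := by linarith
    calc _ = (k * (m z i)⁻¹ + (g s₀⁻¹ - k * s₀)) * cw U v z i ^ 2 := by ring
      _ ≤ g (m z i) * cw U v z i ^ 2 := mul_le_mul_of_nonneg_right h2 (sq_nonneg _)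
  have h3 := Ex_mono (reg_Q (n := n))
    ((hgq.const_mul k).add (Gr.const ((g s₀⁻¹ - k * s₀) * ‖v‖ ^ 2))) (gr_qf h hS hc v) hpt
  rw [Ex_addf reg_Q (hgq.const_mul _) (Gr.const _), Ex_cmul reg_Q, Ex_cst reg_Q] at h3
  have h4 : Ex Q (fun z => qf (hess φ z)⁻¹ v) = s₀ * ‖v‖ ^ 2 := by
    rw [hs₀]; field_simp
  rw [h4] at h3
  linarith

/-! ### means of the Hessian and of its inverse -/

/-- directional derivative of a directional derivative -/
theorem pd_dir {W : E n → ℝ} (hW : ContDiff ℝ 2 W) (v : E n) (i : Fin n) (y : E n) :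
    pd i (fun y => fderiv ℝ W y v) y = ∑ j, v j * hess W y i j := by
  have hd : ∀ j, DifferentiableAt ℝ (pd j W) y := fun j =>
    ((contDiff_pd (k := 1) hW (by norm_num) j).differentiable (by norm_num)) y
  have h1 : HasFDerivAt (fun y => fderiv ℝ W y v) (∑ j, v j • fderiv ℝ (pd j W) y) y := by
    have e : (fun y => fderiv ℝ W y v) = fun y => ∑ j, v j * pd j W y := by
      funext y; exact fderiv_eq_sum _ _ _
    rw [e]
    exact HasFDerivAt.fun_sum fun j _ => (hd j).hasFDerivAt.const_mul (v j)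
  rw [pd, h1.fderiv]
  simp only [_root_.sum_apply, _root_.smul_apply, smul_eq_mul]
  rfl

theorem cd_dir {W : E n → ℝ} (hW : ContDiff ℝ 2 W) (v : E n) :
    ContDiff ℝ 1 (fun y => fderiv ℝ W y v) :=
  (hW.fderiv_right (m := 1) (by norm_num)).clm_apply contDiff_const

theorem gr_dir {W : E n → ℝ} (hW : ∀ i, Gr (pd i W)) (v : E n) : Gr (fun y => fderiv ℝ W y v) := by
  have e : (fun y => fderiv ℝ W y v) = fun y => ∑ j, v j * pd j W y := by
    funext y; exact fderiv_eq_sum _ _ _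
  rw [e]
  exact Gr.sum _ fun i _ => (hW i).const_mul _

theorem dir_dir {W : E n → ℝ} (hW : ContDiff ℝ 2 W) (v y : E n) :
    fderiv ℝ (fun y => fderiv ℝ W y v) y v = qf (hess W y) v := by
  rw [fderiv_eq_sum]
  unfold qf
  refine Finset.sum_congr rfl fun i _ => ?_
  rw [pd_dir hW, Finset.mul_sum]
  exact Finset.sum_congr rfl fun j _ => by ring

/-- `E_V (∂_v W)(∂_v V) = E_V ∂_vv W` -/
theorem ibp2 {W V' : E n → ℝ} {c C : ℝ} (hV : Reg V' c C) (hW : ContDiff ℝ 2 W)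
    (h1 : ∀ i, Gr (pd i W)) (h2 : ∀ i j, Gr (fun y => hess W y i j)) (v : E n) :
    Ex V' (fun y => fderiv ℝ V' y v * fderiv ℝ W y v) = Ex V' (fun y => qf (hess W y) v) := by
  rw [ibp_dir hV (cd_dir hW v) (gr_dir h1 v) (fun i => ?_) v]
  · congr 1
    funext y
    exact dir_dir hW v y
  · have e : pd i (fun y => fderiv ℝ W y v) = fun y => ∑ j, v j * hess W y i j :=
      funext fun y => pd_dir hW v i y
    rw [e]
    exact Gr.sum _ fun j _ => (h2 i j).const_mul _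

theorem amgm (x y l : ℝ) (hl : 0 < l) : x * y ≤ l / 2 * x ^ 2 + 1 / (2 * l) * y ^ 2 := by
  have h1 : 0 ≤ (l * x - y) ^ 2 / (2 * l) := by positivity
  have h2 : (l * x - y) ^ 2 / (2 * l) = l / 2 * x ^ 2 + 1 / (2 * l) * y ^ 2 - x * y := by
    field_simp
    ring
  linarith

theorem mean_upper (hP : StmtPush) (h : BP φ V a b K κ) (v : E n) {l : ℝ} (hl : 0 < l) :
    Ex Q (fun z => qf (hess φ z) v)
      ≤ l / 2 * ‖v‖ ^ 2 + 1 / (2 * l) * Ex V (fun x => (inner ℝ x v : ℝ) ^ 2) := by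
  have e0 := ibp2 (reg_Q (n := n)) h.C2 (gr_dφ h) (gr_ddφ h) v
  rw [← e0]
  have hgi : Gr (fun z : E n => (inner ℝ z v : ℝ)) := gr_inner v
  have hgf : Gr (fun z => fderiv ℝ φ z v) := gr_dir (gr_dφ h) v
  have h1 : Ex Q (fun z => fderiv ℝ Q z v * fderiv ℝ φ z v)
      ≤ Ex Q (fun z => l / 2 * (inner ℝ z v : ℝ) ^ 2 + 1 / (2 * l) * (fderiv ℝ φ z v) ^ 2) := by
    refine Ex_mono reg_Q ?_ (((hgi.pow 2).const_mul _).add ((hgf.pow 2).const_mul _)) fun z => ?_
    · simp only [fderiv_Q]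
      exact hgi.mul hgf
    · rw [fderiv_Q]
      exact amgm _ _ l hl
  refine h1.trans (le_of_eq ?_)
  rw [Ex_addf reg_Q ((hgi.pow 2).const_mul _) ((hgf.pow 2).const_mul _), Ex_cmul reg_Q,
    Ex_cmul reg_Q, Ex_inner_sq, (hP n φ V a b K κ h).1]
  simp only [inner_grad]

/-- inverse of the gradient -/
def iv (φ : E n → ℝ) : E n → E n := Function.invFun (gradient φ)

theorem grad_iv (h : BP φ V a b K κ) (y : E n) : gradient φ (iv φ y) = y :=
  Function.invFun_eq (grad_surj h.C2 h.a_pos h.lower y)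

theorem iv_grad (h : BP φ V a b K κ) (z : E n) : iv φ (gradient φ z) = z :=
  Function.leftInverse_invFun (grad_inj h.C2 h.a_pos h.lower) z

theorem iv_lip (h : BP φ V a b K κ) (y y' : E n) : ‖iv φ y - iv φ y'‖ ≤ a⁻¹ * ‖y - y'‖ := by
  have h1 := grad_dist h.C2 h.a_pos h.lower (iv φ y') (iv φ y)
  rwa [grad_iv h, grad_iv h] at h1

theorem iv_cont (h : BP φ V a b K κ) : Continuous (iv φ) := by
  have h2 : LipschitzWith (Real.toNNReal a⁻¹) (iv φ) :=
    LipschitzWith.of_dist_le_mul fun y y' => by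
      rw [dist_eq_norm, dist_eq_norm, Real.coe_toNNReal _ (inv_nonneg.2 h.a_pos.le)]
      exact iv_lip h y y'
  exact h2.continuous

theorem hess_unit (h : BP φ V a b K κ) (z : E n) : IsUnit (hess φ z).det :=
  isUnit_iff_ne_zero.2 (rad_det_ne h.a_pos (h.lower z))

theorem hasFD_iv (h : BP φ V a b K κ) (y : E n) :
    HasFDerivAt (iv φ) (linL (hess φ (iv φ y))⁻¹) y := by
  set A := hess φ (iv φ y) with hA
  have hu : IsUnit A.det := hess_unit h _
  let e : E n ≃L[ℝ] E n := ContinuousLinearEquiv.equivOfInverse (linL A) (linL A⁻¹)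
    (fun x => by rw [linL_apply, linL_apply, ← lin_mul, Matrix.nonsing_inv_mul _ hu, lin_one])
    (fun x => by rw [linL_apply, linL_apply, ← lin_mul, Matrix.mul_nonsing_inv _ hu, lin_one])
  have he : (e : E n →L[ℝ] E n) = linL A := rfl
  have h1 : HasFDerivAt (gradient φ) (e : E n →L[ℝ] E n) (iv φ y) := by
    rw [he]
    exact H979.hasFDerivAt_gradient h.C2 (iv φ y)
  exact HasFDerivAt.of_local_left_inverse (iv_cont h).continuousAt h1
    (Filter.Eventually.of_forall fun y => grad_iv h y)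

theorem inv_cont (h : BP φ V a b K κ) : Continuous fun z => (hess φ z)⁻¹ := by
  have h1 : Continuous fun z => hess φ z := continuous_matrix fun i j => continuous_hess h.C2 i j
  have e : (fun z => (hess φ z)⁻¹) = fun z => (hess φ z).det⁻¹ • (hess φ z).adjugate := by
    funext z; rw [Matrix.inv_def, Ring.inverse_eq_inv']
  rw [e]
  exact (h1.matrix_det.inv₀ fun z => rad_det_ne h.a_pos (h.lower z)).smul h1.matrix_adjugate

theorem linL_cont : Continuous fun A : Matrix (Fin n) (Fin n) ℝ => (linL A : E n →L[ℝ] E n) := by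
  exact LinearMap.continuous_of_finiteDimensional
    ((LinearMap.toContinuousLinearMap : (E n →ₗ[ℝ] E n) ≃ₗ[ℝ] (E n →L[ℝ] E n)).toLinearMap.comp
      (Matrix.toEuclideanLin : Matrix (Fin n) (Fin n) ℝ ≃ₗ[ℝ] (E n →ₗ[ℝ] E n)).toLinearMap)

/-- the coordinate `⟨T⁻¹ y, v⟩` -/
def fi (φ : E n → ℝ) (v y : E n) : ℝ := inner ℝ (iv φ y) v

theorem fi_fd (h : BP φ V a b K κ) (v y : E n) :
    HasFDerivAt (fi φ v) ((innerSL ℝ v).comp (linL (hess φ (iv φ y))⁻¹)) y := by
  have e : fi φ v = fun y => innerSL ℝ v (iv φ y) := by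
    funext y; rw [innerSL_apply_apply, fi, real_inner_comm]
  rw [e]
  exact (innerSL ℝ v).hasFDerivAt.comp y (hasFD_iv h y)

theorem fi_cd (h : BP φ V a b K κ) (v : E n) : ContDiff ℝ 1 (fi φ v) := by
  rw [contDiff_one_iff_fderiv]
  refine ⟨fun y => (fi_fd h v y).differentiableAt, ?_⟩
  have e : fderiv ℝ (fi φ v) = fun y => (innerSL ℝ v).comp (linL (hess φ (iv φ y))⁻¹) :=
    funext fun y => (fi_fd h v y).fderiv
  rw [e]
  exact continuous_const.clm_comp (linL_cont.comp ((inv_cont h).comp (iv_cont h)))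

theorem fi_pd (h : BP φ V a b K κ) (v : E n) (i : Fin n) (y : E n) :
    pd i (fi φ v) y = ∑ j, v j * (hess φ (iv φ y))⁻¹ j i := by
  rw [pd, (fi_fd h v y).fderiv, ContinuousLinearMap.comp_apply, innerSL_apply_apply,
    linL_apply, PiLp.inner_apply]
  refine Finset.sum_congr rfl fun j _ => ?_
  have h1 : (lin (hess φ (iv φ y))⁻¹ (ei i)) j = (hess φ (iv φ y))⁻¹ j i := by
    unfold lin
    simp only [Matrix.mulVec, dotProduct]
    simp [ei_apply]
  rw [h1]
  simp [mul_comm]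

theorem fi_dir (h : BP φ V a b K κ) (v y : E n) :
    fderiv ℝ (fi φ v) y v = qf (hess φ (iv φ y))⁻¹ v := by
  rw [fderiv_eq_sum]
  unfold qf
  rw [Finset.sum_comm]
  refine Finset.sum_congr rfl fun i _ => ?_
  rw [fi_pd h, Finset.mul_sum]
  exact Finset.sum_congr rfl fun j _ => by ring

theorem fi_gr (h : BP φ V a b K κ) (v : E n) : Gr (fi φ v) := by
  have ha : 0 < a⁻¹ := inv_pos.2 h.a_pos
  refine ⟨(fi_cd h v).continuous, (‖iv φ 0‖ + a⁻¹) * ‖v‖, 1, by positivity, fun y => ?_⟩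
  have h1 := iv_lip h y 0
  rw [sub_zero] at h1
  have h2 : ‖iv φ y‖ ≤ ‖iv φ 0‖ + a⁻¹ * ‖y‖ := by
    calc ‖iv φ y‖ = ‖iv φ 0 + (iv φ y - iv φ 0)‖ := by rw [add_sub_cancel]
      _ ≤ ‖iv φ 0‖ + ‖iv φ y - iv φ 0‖ := norm_add_le _ _
      _ ≤ _ := by linarith
  have h3 := abs_real_inner_le_norm (iv φ y) v
  have h4 : ‖iv φ 0‖ + a⁻¹ * ‖y‖ ≤ (‖iv φ 0‖ + a⁻¹) * (1 + ‖y‖) := by
    have := mul_nonneg (norm_nonneg (iv φ 0)) (norm_nonneg y)
    nlinarith
  rw [pow_one]
  calc |fi φ v y| ≤ ‖iv φ y‖ * ‖v‖ := h3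
    _ ≤ ((‖iv φ 0‖ + a⁻¹) * (1 + ‖y‖)) * ‖v‖ :=
      mul_le_mul_of_nonneg_right (h2.trans h4) (norm_nonneg _)
    _ = _ := by ring

theorem mean_lower (hP : StmtPush) {c C : ℝ} (hV : Reg V c C) (h : BP φ V a b K κ) (v : E n)
    {l : ℝ} (hl : 0 < l) :
    Ex Q (fun z => qf (hess φ z)⁻¹ v)
      ≤ l / 2 * ‖v‖ ^ 2 + 1 / (2 * l) * Ex V (fun x => qf (hess V x) v) := by
  have hgp : ∀ i, Gr (pd i (fi φ v)) := by
    intro i
    have hcd := (contDiff_one_iff_fderiv.1 (fi_cd h v)).2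
    have hc : Continuous (pd i (fi φ v)) := hcd.clm_apply continuous_const
    refine Gr.of_bound hc (B := ∑ j, |v j| * (1 / a)) fun y => ?_
    rw [fi_pd h]
    refine (Finset.abs_sum_le_sum_abs _ _).trans (Finset.sum_le_sum fun j _ => ?_)
    rw [abs_mul]
    exact mul_le_mul_of_nonneg_left (rad_inv_le h.a_pos (h.lower _) _ _) (abs_nonneg _)
  have hgf := fi_gr h v
  have hgV : Gr (fun y => fderiv ℝ V y v) := gr_dir (fun i => hV.gr_pd i) v
  have e1 := ibp_dir hV (fi_cd h v) hgf hgp v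
  have e2 : Ex V (fun x => fderiv ℝ (fi φ v) x v) = Ex Q (fun z => qf (hess φ z)⁻¹ v) := by
    rw [(hP n φ V a b K κ h).1]
    simp only [fi_dir h, iv_grad h]
  have e3 : Ex V (fun y => fi φ v y ^ 2) = ‖v‖ ^ 2 := by
    rw [(hP n φ V a b K κ h).1, ← Ex_inner_sq]
    simp only [fi, iv_grad h]
  have e4 := ibp2 hV hV.C2 (fun i => hV.gr_pd i) (fun i j => hV.gr_hess i j) v
  rw [← e2, ← e1, ← e3, ← e4]
  have h1 : Ex V (fun x => fderiv ℝ V x v * fi φ v x)
      ≤ Ex V (fun x => l / 2 * fi φ v x ^ 2 + 1 / (2 * l) * (fderiv ℝ V x v * fderiv ℝ V x v)) := by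
    refine Ex_mono hV (hgV.mul hgf) (((hgf.pow 2).const_mul _).add ((hgV.mul hgV).const_mul _))
      fun x => ?_
    have h2 := amgm (fi φ v x) (fderiv ℝ V x v) l hl
    rw [mul_comm, ← pow_two]
    exact h2
  refine h1.trans (le_of_eq ?_)
  rw [Ex_addf hV ((hgf.pow 2).const_mul _) ((hgV.mul hgV).const_mul _), Ex_cmul hV, Ex_cmul hV]

end

/-- **SP-P4** -/
theorem stmtFace_of (hP : StmtPush) : StmtFace := by
  intro n V c C hV P hPs hPd φ a b K κ h U m hS g hmono hconc hconv hcont t v ht hv hPv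
  have hN : 0 < ‖v‖ ^ 2 := by have := norm_pos_iff.2 hv; positivity
  have hC : 0 < C := by
    have h1 := hV.lower 0 v
    have h2 := hV.upper 0 v
    have h3 := hV.c_pos
    by_contra hcon
    push Not at hcon
    nlinarith
  obtain ⟨c', C', hV'⟩ := reg_lin hV hPd
  constructor
  · obtain ⟨hs, hj⟩ := jensen_upper h hS hcont hconc v hv
    set s₀ := Ex Q (fun z => qf (hess φ z) v) / ‖v‖ ^ 2 with hs₀
    set R2 := Ex V (fun x => ‖x‖ ^ 2) with hR2
    have hR0 : 0 ≤ R2 := by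
      rw [hR2, ← int_law hV]
      exact integral_nonneg fun x => by positivity
    have h5 : Ex (fun x => V (lin P x)) (fun x => (inner ℝ x v : ℝ) ^ 2) ≤ R2 / t ^ 2 * ‖v‖ ^ 2 := by
      have e1 : (fun x : E n => (inner ℝ x v : ℝ) ^ 2)
          = fun x => (fun y : E n => 1 / t ^ 2 * (inner ℝ y v : ℝ) ^ 2) (lin P x) := by
        funext x
        have h6 : (inner ℝ (lin P x) v : ℝ) = t * inner ℝ x v := by
          have h7 : (inner ℝ (lin P x) v : ℝ) = inner ℝ x (lin P v) := by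
            unfold lin
            rw [PiLp.inner_apply, PiLp.inner_apply]
            simp only [Matrix.mulVec, dotProduct, RCLike.inner_apply, conj_trivial, Finset.mul_sum,
              Finset.sum_mul]
            rw [Finset.sum_comm]
            refine Finset.sum_congr rfl fun i _ => Finset.sum_congr rfl fun j _ => ?_
            have h8 : P j i = P i j := by
              have := congrFun (congrFun hPs i) j
              simpa [Matrix.transpose_apply] using this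
            rw [h8]
            ring
          rw [h7, hPv, real_inner_smul_right]
        simp only [h6]
        field_simp
      rw [e1, Ex_lin hPd V (fun y : E n => 1 / t ^ 2 * (inner ℝ y v : ℝ) ^ 2)]
      have h9 : Ex V (fun y : E n => 1 / t ^ 2 * (inner ℝ y v : ℝ) ^ 2)
          ≤ Ex V (fun y : E n => (1 / t ^ 2 * ‖v‖ ^ 2) * ‖y‖ ^ 2) := by
        refine Ex_mono hV (((gr_inner v).pow 2).const_mul _) ((Gr.norm.pow 2).const_mul _)
          fun y => ?_
        have h10 := abs_real_inner_le_norm y v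
        have h11 : (inner ℝ y v : ℝ) ^ 2 ≤ (‖y‖ * ‖v‖) ^ 2 := by
          rw [← sq_abs (inner ℝ y v : ℝ)]
          exact pow_le_pow_left₀ (abs_nonneg _) h10 2
        calc 1 / t ^ 2 * (inner ℝ y v : ℝ) ^ 2 ≤ 1 / t ^ 2 * (‖y‖ * ‖v‖) ^ 2 :=
              mul_le_mul_of_nonneg_left h11 (by positivity)
          _ = _ := by ring
      refine h9.trans (le_of_eq ?_)
      rw [Ex_cmul hV, ← hR2]
      ring
    have h6 : s₀ ≤ Real.sqrt (R2 / t ^ 2) := by
      refine le_of_param hs fun l hl => ?_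
      have h7 := mean_upper hP h v hl
      rw [hs₀, div_le_iff₀ hN]
      refine h7.trans ?_
      have h8 : 1 / (2 * l) * Ex (fun x => V (lin P x)) (fun x => (inner ℝ x v : ℝ) ^ 2)
          ≤ 1 / (2 * l) * (R2 / t ^ 2 * ‖v‖ ^ 2) := mul_le_mul_of_nonneg_left h5 (by positivity)
      have h9 : 1 / (2 * l) * (R2 / t ^ 2 * ‖v‖ ^ 2) = R2 / t ^ 2 / (2 * l) * ‖v‖ ^ 2 := by ring
      linarith
    have h7 : Real.sqrt (R2 / t ^ 2) = Real.sqrt R2 / t := by
      rw [Real.sqrt_div hR0, Real.sqrt_sq ht.le]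
    rw [h7] at h6
    exact hj.trans (mul_le_mul_of_nonneg_right (hmono hs (hs.trans_le h6) h6) hN.le)
  · obtain ⟨hs, hj⟩ := jensen_lower h hS hcont hconv v hv
    set s₀ := Ex Q (fun z => qf (hess φ z)⁻¹ v) / ‖v‖ ^ 2 with hs₀
    have h5 : Ex (fun x => V (lin P x)) (fun x => qf (hess (fun x => V (lin P x)) x) v)
        ≤ C * t ^ 2 * ‖v‖ ^ 2 := by
      rw [← Ex_cst hV' (C * t ^ 2 * ‖v‖ ^ 2)]
      have hgq : Gr (fun x => qf (hess (fun x => V (lin P x)) x) v) := by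
        unfold qf
        exact Gr.sum _ fun i _ => Gr.sum _ fun j _ =>
          ((hV'.gr_hess i j).mul (Gr.const _)).mul (Gr.const _)
      refine Ex_mono hV' hgq (Gr.const _) fun x => ?_
      rw [qf_hess_lin hV.C2, hPv]
      refine (hV.upper _ _).trans (le_of_eq ?_)
      rw [norm_smul, mul_pow, Real.norm_eq_abs, sq_abs]
      ring
    have h6 : s₀ ≤ Real.sqrt (C * t ^ 2) := by
      refine le_of_param hs fun l hl => ?_
      have h7 := mean_lower hP hV' h v hl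
      rw [hs₀, div_le_iff₀ hN]
      refine h7.trans ?_
      have h8 := mul_le_mul_of_nonneg_left h5 (by positivity : (0 : ℝ) ≤ 1 / (2 * l))
      have h9 : 1 / (2 * l) * (C * t ^ 2 * ‖v‖ ^ 2) = C * t ^ 2 / (2 * l) * ‖v‖ ^ 2 := by ring
      linarith
    have h7 : Real.sqrt (C * t ^ 2) = t * Real.sqrt C := by
      rw [Real.sqrt_mul hC.le, Real.sqrt_sq ht.le, mul_comm]
    rw [h7] at h6
    refine le_trans (mul_le_mul_of_nonneg_right (hmono ?_ (inv_pos.2 hs) ?_) hN.le) hj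
    · have := Real.sqrt_pos.2 hC
      exact Set.mem_Ioi.2 (by positivity)
    · rw [one_div]
      exact inv_anti₀ hs h6

theorem stmtFace : StmtFace := stmtFace_of H979.stmtPush

end Vale.Agent.P254.SP.H800
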